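import Vale.Agent.P171.Main

namespace Vale.Agent.Results.P171.A_Transition

open Vale.Agent.P171 Filter Topology

/-- A bounded continuous stable radial pair potential with an integrable power-law tail whose
pressure is not differentiable in the activity. -/
theorem result : ∃ φ : ℝ → ℝ, Continuous φ ∧ (∃ M : ℝ, ∀ r, 0 ≤ r → |φ r| ≤ M) ∧
    (∃ C : ℝ, ∀ r, 4 ≤ r → |φ r| ≤ C * r ^ (-3 - 1 / 24 : ℝ)) ∧ Stable φ ∧ Tempered φ ∧
    ∃ P : ℝ → ℝ → ℝ,
      (∀ β z, 0 < β → 0 < z → (∀ L, Summable (fun N => z ^ N * canonicalZ φ β L N)) ∧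
        Tendsto (fun L => Real.log (grandZ φ β z L) / L ^ 3) atTop (𝓝 (P β z))) ∧
      ∃ β z, 0 < β ∧ 0 < z ∧ ¬ DifferentiableAt ℝ (P β) z :=
  main

end Vale.Agent.Results.P171.A_Transition
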